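import Mathlib

/-!
# S0453, (DP) summation — generic bookkeeping (helper10)

`V` a finite type of vertices.  Indices are ORDERED 4-tuples `(a, b, c, e)` of pairwise distinct
vertices (`D4`).  For real-valued functions `Sw`, `Bad`, `IP` of four vertices:

* `dp_sum` : from the two-pair lemma `Sw a b c e - Bad a b c e - Bad c e a b ≤ 2 * IP a b c e`
  and the Johnson bound `∑_{c,e} Bad a b c e ≤ (1/2) ∑_{c,e} Sw a b c e` we get
  `0 ≤ ∑_{(a,b,c,e)} IP a b c e`.
* `sum_pairs_eq_tuples` : a sum over ordered pairs `(b, b')` of disjoint 2-subsets of `V` is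
  `1/4` of the corresponding sum over ordered 4-tuples.
* `sum_pairs_eq_pairs` : a sum over 2-subsets is `1/2` of the sum over ordered pairs.
-/

set_option autoImplicit false

namespace Crest.Agent.Helper10.S0453

open Finset

/-- Pairwise distinctness of an ordered 4-tuple. -/
def D4 {V : Type*} (a b c e : V) : Prop := a ≠ b ∧ a ≠ c ∧ a ≠ e ∧ b ≠ c ∧ b ≠ e ∧ c ≠ e

instance {V : Type*} [DecidableEq V] (a b c e : V) : Decidable (D4 a b c e) := by
  unfold D4; infer_instance

theorem D4.swap {V : Type*} {a b c e : V} (h : D4 a b c e) : D4 c e a b := by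
  obtain ⟨h1, h2, h3, h4, h5, h6⟩ := h
  exact ⟨h6, h2.symm, h4.symm, h3.symm, h5.symm, h1⟩

theorem D4_swap_iff {V : Type*} {a b c e : V} : D4 a b c e ↔ D4 c e a b := ⟨D4.swap, D4.swap⟩

variable {V : Type*} [Fintype V] [DecidableEq V]

/-- Sum over ordered 4-tuples of pairwise distinct vertices. -/
noncomputable def sum4 (F : V → V → V → V → ℝ) : ℝ :=
  ∑ a, ∑ b, ∑ c, ∑ e, if D4 a b c e then F a b c e else 0

theorem sum4_swap (F : V → V → V → V → ℝ) :
    sum4 (fun a b c e => F c e a b) = sum4 F := by
  unfold sum4
  have h1 : ∀ a b : V, (∑ c, ∑ e, if D4 a b c e then F c e a b else 0)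
      = ∑ c, ∑ e, if D4 c e a b then F c e a b else 0 := by
    intro a b
    refine Finset.sum_congr rfl (fun c _ => Finset.sum_congr rfl (fun e _ => ?_))
    by_cases h : D4 a b c e
    · rw [if_pos h, if_pos h.swap]
    · rw [if_neg h, if_neg (fun h' => h h'.swap)]
  simp_rw [h1]
  -- now reorder the four sums: (a, b, c, e) -> (c, e, a, b)
  calc ∑ a, ∑ b, ∑ c, ∑ e, (if D4 c e a b then F c e a b else 0)
      = ∑ a, ∑ c, ∑ b, ∑ e, (if D4 c e a b then F c e a b else 0) := by
        refine Finset.sum_congr rfl (fun a _ => ?_)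
        rw [Finset.sum_comm]
    _ = ∑ c, ∑ a, ∑ b, ∑ e, (if D4 c e a b then F c e a b else 0) := by
        rw [Finset.sum_comm]
    _ = ∑ c, ∑ a, ∑ e, ∑ b, (if D4 c e a b then F c e a b else 0) := by
        refine Finset.sum_congr rfl (fun c _ => Finset.sum_congr rfl (fun a _ => ?_))
        rw [Finset.sum_comm]
    _ = ∑ c, ∑ e, ∑ a, ∑ b, (if D4 c e a b then F c e a b else 0) := by
        refine Finset.sum_congr rfl (fun c _ => ?_)
        rw [Finset.sum_comm]

theorem sum4_add (F G : V → V → V → V → ℝ) :
    sum4 (fun a b c e => F a b c e + G a b c e) = sum4 F + sum4 G := by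
  unfold sum4
  simp only [← Finset.sum_add_distrib]
  refine Finset.sum_congr rfl (fun a _ => Finset.sum_congr rfl (fun b _ =>
    Finset.sum_congr rfl (fun c _ => Finset.sum_congr rfl (fun e _ => ?_))))
  split_ifs <;> simp

theorem sum4_sub (F G : V → V → V → V → ℝ) :
    sum4 (fun a b c e => F a b c e - G a b c e) = sum4 F - sum4 G := by
  unfold sum4
  simp only [← Finset.sum_sub_distrib]
  refine Finset.sum_congr rfl (fun a _ => Finset.sum_congr rfl (fun b _ =>
    Finset.sum_congr rfl (fun c _ => Finset.sum_congr rfl (fun e _ => ?_))))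
  split_ifs <;> simp

theorem sum4_const_mul (k : ℝ) (F : V → V → V → V → ℝ) :
    sum4 (fun a b c e => k * F a b c e) = k * sum4 F := by
  unfold sum4
  simp only [Finset.mul_sum]
  refine Finset.sum_congr rfl (fun a _ => Finset.sum_congr rfl (fun b _ =>
    Finset.sum_congr rfl (fun c _ => Finset.sum_congr rfl (fun e _ => ?_))))
  split_ifs <;> simp

theorem sum4_mono {F G : V → V → V → V → ℝ} (h : ∀ a b c e, D4 a b c e → F a b c e ≤ G a b c e) :
    sum4 F ≤ sum4 G := by
  unfold sum4
  refine Finset.sum_le_sum (fun a _ => Finset.sum_le_sum (fun b _ =>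
    Finset.sum_le_sum (fun c _ => Finset.sum_le_sum (fun e _ => ?_))))
  by_cases hD : D4 a b c e
  · rw [if_pos hD, if_pos hD]; exact h a b c e hD
  · rw [if_neg hD, if_neg hD]

/-- **(DP) summation.**  Two-pair lemma + Johnson bound give nonnegativity of the disjoint-pair
sum. -/
theorem dp_sum (Sw Bad IP : V → V → V → V → ℝ)
    (hTPL : ∀ a b c e, D4 a b c e → Sw a b c e - Bad a b c e - Bad c e a b ≤ 2 * IP a b c e)
    (hJ2 : ∀ a b, a ≠ b →
      (∑ c, ∑ e, if D4 a b c e then Bad a b c e else 0)
        ≤ (1 / 2) * ∑ c, ∑ e, if D4 a b c e then Sw a b c e else 0) :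
    0 ≤ sum4 IP := by
  have h1 : sum4 (fun a b c e => Sw a b c e - Bad a b c e - Bad c e a b)
      ≤ sum4 (fun a b c e => 2 * IP a b c e) := sum4_mono hTPL
  rw [sum4_const_mul, sum4_sub, sum4_sub, sum4_swap Bad] at h1
  have h2 : sum4 Bad ≤ (1 / 2) * sum4 Sw := by
    unfold sum4
    rw [Finset.mul_sum]
    refine Finset.sum_le_sum (fun a _ => ?_)
    rw [Finset.mul_sum]
    refine Finset.sum_le_sum (fun b _ => ?_)
    by_cases hab : a = b
    · have hz : ∀ (F : V → V → V → V → ℝ),
          (∑ c, ∑ e, if D4 a b c e then F a b c e else 0) = 0 := by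
        intro F
        refine Finset.sum_eq_zero (fun c _ => Finset.sum_eq_zero (fun e _ => ?_))
        rw [if_neg]
        intro h
        exact h.1 hab
      rw [hz Bad, hz Sw]
      simp
    · exact hJ2 a b hab
  linarith

/-! ### Unordered pairs versus ordered pairs -/

/-- The fibre of `(a, b) ↦ {a, b}` over a 2-set has two elements. -/
theorem card_fiber_pair (y : Finset V) (hy : y.card = 2) :
    ((univ : Finset V).offDiag.filter (fun p : V × V => ({p.1, p.2} : Finset V) = y)).card = 2 := by
  obtain ⟨u, v, huv, rfl⟩ := Finset.card_eq_two.mp hy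
  have : (univ : Finset V).offDiag.filter (fun p : V × V => ({p.1, p.2} : Finset V) = {u, v})
      = {(u, v), (v, u)} := by
    ext ⟨a, b⟩
    simp only [Finset.mem_filter, Finset.mem_offDiag, Finset.mem_univ, true_and,
      Finset.mem_insert, Finset.mem_singleton, Prod.mk.injEq]
    constructor
    · rintro ⟨hab, h⟩
      have ha : a ∈ ({u, v} : Finset V) := by rw [← h]; simp
      have hb : b ∈ ({u, v} : Finset V) := by rw [← h]; simp
      simp only [Finset.mem_insert, Finset.mem_singleton] at ha hb
      rcases ha with rfl | rfl <;> rcases hb with rfl | rfl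
      · exact absurd rfl hab
      · exact Or.inl ⟨rfl, rfl⟩
      · exact Or.inr ⟨rfl, rfl⟩
      · exact absurd rfl hab
    · rintro (⟨rfl, rfl⟩ | ⟨rfl, rfl⟩)
      · exact ⟨huv, rfl⟩
      · exact ⟨huv.symm, Finset.pair_comm _ _⟩
  rw [this, Finset.card_pair]
  intro h
  exact huv (Prod.mk.injEq _ _ _ _ ▸ h).1

/-- A sum over 2-subsets is half the sum over ordered pairs of distinct vertices. -/
theorem sum_pairs_eq_ordered (g : Finset V → ℝ) :
    ∑ b : {s : Finset V // s.card = 2}, g b.1
      = (1 / 2) * ∑ a, ∑ b, if a ≠ b then g {a, b} else 0 := by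
  classical
  have h1 : ∑ b : {s : Finset V // s.card = 2}, g b.1
      = ∑ s ∈ (univ : Finset (Finset V)).filter (fun s => s.card = 2), g s :=
    (Finset.sum_subtype _ (by simp) g).symm
  have h2 : ∑ p ∈ (univ : Finset V).offDiag, g {p.1, p.2}
      = ∑ s ∈ (univ : Finset (Finset V)).filter (fun s => s.card = 2),
          ∑ p ∈ (univ : Finset V).offDiag.filter (fun p : V × V => ({p.1, p.2} : Finset V) = s),
            g {p.1, p.2} := by
    symm
    apply Finset.sum_fiberwise_of_maps_to
    intro p hp
    simp only [Finset.mem_offDiag, Finset.mem_univ, true_and] at hp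
    simp only [Finset.mem_filter, Finset.mem_univ, true_and]
    exact Finset.card_pair hp
  have h3 : ∀ s ∈ (univ : Finset (Finset V)).filter (fun s => s.card = 2),
      ∑ p ∈ (univ : Finset V).offDiag.filter (fun p : V × V => ({p.1, p.2} : Finset V) = s),
        g {p.1, p.2} = 2 * g s := by
    intro s hs
    simp only [Finset.mem_filter, Finset.mem_univ, true_and] at hs
    have : ∀ p ∈ (univ : Finset V).offDiag.filter (fun p : V × V => ({p.1, p.2} : Finset V) = s),
        g {p.1, p.2} = g s := by
      intro p hp
      rw [(Finset.mem_filter.mp hp).2]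
    rw [Finset.sum_congr rfl this, Finset.sum_const, card_fiber_pair s hs]
    simp
  have h4 : ∑ p ∈ (univ : Finset V).offDiag, g {p.1, p.2}
      = ∑ a, ∑ b, if a ≠ b then g {a, b} else 0 := by
    have e : (univ : Finset V).offDiag
        = ((univ : Finset V) ×ˢ (univ : Finset V)).filter (fun p : V × V => p.1 ≠ p.2) := by
      ext p
      simp [Finset.mem_offDiag]
    rw [e, Finset.sum_filter, Finset.sum_product]
  rw [h1, ← h4, h2, Finset.sum_congr rfl h3, ← Finset.mul_sum]
  ring

/-- A sum over ordered pairs of disjoint 2-subsets is a quarter of the sum over ordered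
4-tuples of pairwise distinct vertices. -/
theorem sum_pairs_eq_tuples (F : Finset V → Finset V → ℝ) :
    ∑ b : {s : Finset V // s.card = 2},
        ∑ b' ∈ univ.filter (fun b' : {s : Finset V // s.card = 2} =>
          b' ≠ b ∧ Disjoint (b : Finset V) (b' : Finset V)), F b.1 b'.1
      = (1 / 4) * sum4 (fun a b c e => F {a, b} {c, e}) := by
  classical
  -- inner sum as a sum over all pairs with an indicator depending on the underlying set
  have hin : ∀ b : {s : Finset V // s.card = 2},
      ∑ b' ∈ univ.filter (fun b' : {s : Finset V // s.card = 2} =>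
          b' ≠ b ∧ Disjoint (b : Finset V) (b' : Finset V)), F b.1 b'.1
        = (1 / 2) * ∑ c, ∑ e, if c ≠ e then
            (if Disjoint b.1 ({c, e} : Finset V) then F b.1 {c, e} else 0) else 0 := by
    intro b
    rw [Finset.sum_filter, ← sum_pairs_eq_ordered (fun s => if Disjoint b.1 s then F b.1 s else 0)]
    refine Finset.sum_congr rfl (fun b' _ => ?_)
    by_cases hd : Disjoint (b : Finset V) (b' : Finset V)
    · have hne : b' ≠ b := by
        rintro rfl
        have h0 : (b' : Finset V) = ∅ := by simpa using hd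
        have := b'.2
        rw [h0] at this
        simp at this
      rw [if_pos ⟨hne, hd⟩, if_pos hd]
    · rw [if_neg (fun h => hd h.2), if_neg hd]
  simp_rw [hin]
  rw [← Finset.mul_sum,
    sum_pairs_eq_ordered (fun s => ∑ c, ∑ e, if c ≠ e then
            (if Disjoint s ({c, e} : Finset V) then F s {c, e} else 0) else 0)]
  have key : (∑ a, ∑ b, if a ≠ b then (∑ c, ∑ e, if c ≠ e then
            (if Disjoint ({a, b} : Finset V) ({c, e} : Finset V) then F {a, b} {c, e} else 0)
              else 0) else 0)
      = sum4 (fun a b c e => F {a, b} {c, e}) := by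
    unfold sum4
    refine Finset.sum_congr rfl (fun a _ => Finset.sum_congr rfl (fun b _ => ?_))
    by_cases hab : a = b
    · rw [if_neg (not_not.mpr hab)]
      symm
      refine Finset.sum_eq_zero (fun c _ => Finset.sum_eq_zero (fun e _ => ?_))
      rw [if_neg]
      intro h
      exact h.1 hab
    · rw [if_pos hab]
      refine Finset.sum_congr rfl (fun c _ => Finset.sum_congr rfl (fun e _ => ?_))
      by_cases hD : D4 a b c e
      · obtain ⟨h1, h2, h3, h4, h5, h6⟩ := hD
        have hdis : Disjoint ({a, b} : Finset V) ({c, e} : Finset V) := by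
          rw [Finset.disjoint_left]
          intro x hx hx'
          simp only [Finset.mem_insert, Finset.mem_singleton] at hx hx'
          rcases hx with rfl | rfl <;> rcases hx' with rfl | rfl
          · exact h2 rfl
          · exact h3 rfl
          · exact h4 rfl
          · exact h5 rfl
        rw [if_pos h6, if_pos hdis, if_pos ⟨h1, h2, h3, h4, h5, h6⟩]
      · rw [if_neg hD]
        by_cases hce : c = e
        · rw [if_neg (not_not.mpr hce)]
        · rw [if_pos hce, if_neg]
          intro hdis
          apply hD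
          rw [Finset.disjoint_left] at hdis
          refine ⟨hab, ?_, ?_, ?_, ?_, hce⟩
          · intro h
            exact hdis (show a ∈ ({a, b} : Finset V) by simp) (by rw [h]; simp)
          · intro h
            exact hdis (show a ∈ ({a, b} : Finset V) by simp) (by rw [h]; simp)
          · intro h
            exact hdis (show b ∈ ({a, b} : Finset V) by simp) (by rw [h]; simp)
          · intro h
            exact hdis (show b ∈ ({a, b} : Finset V) by simp) (by rw [h]; simp)
  rw [key]
  ring

end Crest.Agent.Helper10.S0453
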