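import Crest.Agent.Helper65.Switch.Classes
import Crest.Agent.Helper10.S0453.DPSum

/-!
# S0453 — the pair interface of record and the (DP) summation (helper10)

Built on helper65's shared model layer (`offU`, `cls`, `Qavg`, `Rop`, `adj`).  All indices are
ORDERED tuples `a b c e : Fin n` of vertices; the two disjoint pairs are `{a, b}` and `{c, e}`.

## Definitions
* `SwAt G a b c e`  : the switch `ac, be → ae, bc` is available at `G`
  (`ac, be ∈ G`, `ae, bc ∉ G`); its diagonals are `{a, b}` and `{c, e}`.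
* `blk a b c e`     : the four block edges `ac, be, ae, bc`.
* `flip a b c e G`  : `G ∆ blk a b c e` (total; the switched graph when `SwAt G a b c e`).
* `Sw d a b c e f`  : `∑_{G ∈ Ω, SwAt G a b c e} (f G - f (flip a b c e G))²`
  (= `Ecal_{ab,ce}(f)` of PROOF.md: every switch edge with diagonals `{a,b}`, `{c,e}` once).
* `Split G a b c e` : `SwAt G a b c e ∨ SwAt G a b e c` (`c, e ∈ D_K` and split between `a`, `b`).
* `Bad d a b c e f` : `∑_{G ∈ Ω, Split} (avg of f over (cls d {a,b} G) ∩ Split - Qavg d {a,b} f G)²`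
  (= `∑_K |K| Cov_K(f, χ)² / π_K` over the classes `K` of `~_{ab}` with `c, e ∈ D_K`).

## Interfaces (hypotheses of the theorems below)
* `TPLGraph d f` : for pairwise distinct `a b c e`,
  `Sw d a b c e f - Bad d a b c e f - Bad d c e a b f ≤ 2 * ∑_{G ∈ Ω} Rop d {a,b} f G * Rop d {c,e} f G`.
* `J2Graph d f`  : for `a ≠ b`,
  `∑_{c,e} [D4 a b c e] Bad d a b c e f ≤ (1/2) ∑_{c,e} [D4 a b c e] Sw d a b c e f`.

## Results
* `dp_tuples` : `0 ≤ ∑_{(a,b,c,e) pairwise distinct} ∑_{G ∈ Ω} Rop d {a,b} f G * Rop d {c,e} f G`.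
* `dp_pairs`  : the same as a sum over ordered pairs of disjoint 2-subsets (the shape of `h2` in
  helper26's `gap_pairs`, with `Rop`); `dp_pairs_offU` : literally with `f x - Qavg ...`.
-/

set_option autoImplicit false

namespace Crest.Agent.Helper10.S0453

open Finset Crest.SwitchChain Crest.Agent.Helper65.Switch

variable {n : ℕ}

/-- The switch `ac, be → ae, bc` is available at `G`. -/
def SwAt (G : Finset (Edge n)) (a b c e : Fin n) : Prop :=
  adj G a c ∧ adj G b e ∧ ¬ adj G a e ∧ ¬ adj G b c

/-- The four block edges between `{a, b}` and `{c, e}`. -/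
def blk (a b c e : Fin n) : Finset (Edge n) :=
  univ.filter (fun x : Edge n => x.1 = s(a, c) ∨ x.1 = s(b, e) ∨ x.1 = s(a, e) ∨ x.1 = s(b, c))

/-- Flip the block: symmetric difference with the four block edges. -/
def flip (a b c e : Fin n) (G : Finset (Edge n)) : Finset (Edge n) :=
  symmDiff G (blk a b c e)

/-- The energy of the switch edges with diagonals `{a, b}` and `{c, e}` (each edge once). -/
noncomputable def Sw (d : Fin n → ℕ) (a b c e : Fin n) (f : Finset (Edge n) → ℝ) : ℝ := by
  classical
  exact ∑ G ∈ (realizations d).filter (fun G => SwAt G a b c e), (f G - f (flip a b c e G)) ^ 2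

/-- `c` and `e` are split between `a` and `b` (the block is a permutation matrix). -/
def Split (G : Finset (Edge n)) (a b c e : Fin n) : Prop :=
  SwAt G a b c e ∨ SwAt G a b e c

/-- The Bad term of the two-pair lemma. -/
noncomputable def Bad (d : Fin n → ℕ) (a b c e : Fin n) (f : Finset (Edge n) → ℝ) : ℝ := by
  classical
  exact ∑ G ∈ (realizations d).filter (fun G => Split G a b c e),
    ((∑ G' ∈ (cls d {a, b} G).filter (fun G' => Split G' a b c e), f G') /
        (((cls d {a, b} G).filter (fun G' => Split G' a b c e)).card : ℝ)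
      - Qavg d {a, b} f G) ^ 2

lemma Sw_def (d : Fin n → ℕ) (a b c e : Fin n) (f : Finset (Edge n) → ℝ)
    [DecidablePred (fun G : Finset (Edge n) => SwAt G a b c e)] :
    Sw d a b c e f
      = ∑ G ∈ (realizations d).filter (fun G => SwAt G a b c e),
          (f G - f (flip a b c e G)) ^ 2 := by
  unfold Sw
  refine Finset.sum_congr ?_ (fun _ _ => rfl)
  ext G
  simp only [Finset.mem_filter]

lemma Bad_def (d : Fin n → ℕ) (a b c e : Fin n) (f : Finset (Edge n) → ℝ)
    [DecidablePred (fun G : Finset (Edge n) => Split G a b c e)] :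
    Bad d a b c e f
      = ∑ G ∈ (realizations d).filter (fun G => Split G a b c e),
          ((∑ G' ∈ (cls d {a, b} G).filter (fun G' => Split G' a b c e), f G') /
              (((cls d {a, b} G).filter (fun G' => Split G' a b c e)).card : ℝ)
            - Qavg d {a, b} f G) ^ 2 := by
  unfold Bad
  have hset : ∀ (S : Finset (Finset (Edge n))),
      @Finset.filter _ (fun G => Split G a b c e) (fun G => Classical.propDecidable _) S
        = S.filter (fun G => Split G a b c e) := by
    intro S
    ext G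
    simp only [Finset.mem_filter]
  rw [hset]
  refine Finset.sum_congr rfl (fun G _ => ?_)
  rw [hset]

lemma Sw_nonneg (d : Fin n → ℕ) (a b c e : Fin n) (f : Finset (Edge n) → ℝ) :
    0 ≤ Sw d a b c e f := by
  classical
  rw [Sw_def]
  exact Finset.sum_nonneg (fun _ _ => sq_nonneg _)

lemma Bad_nonneg (d : Fin n → ℕ) (a b c e : Fin n) (f : Finset (Edge n) → ℝ) :
    0 ≤ Bad d a b c e f := by
  classical
  rw [Bad_def]
  exact Finset.sum_nonneg (fun _ _ => sq_nonneg _)

/-- The inner product `⟨R_{ab} f, R_{ce} f⟩` over the realizations. -/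
noncomputable def IPair (d : Fin n → ℕ) (f : Finset (Edge n) → ℝ) (U U' : Finset (Fin n)) : ℝ :=
  ∑ G ∈ realizations d, Rop d U f G * Rop d U' f G

/-- **(TPL-graph)**: the two-pair lemma in the graph model (target of E1 + E2). -/
def TPLGraph (d : Fin n → ℕ) (f : Finset (Edge n) → ℝ) : Prop :=
  ∀ a b c e : Fin n, D4 a b c e →
    Sw d a b c e f - Bad d a b c e f - Bad d c e a b f ≤ 2 * IPair d f {a, b} {c, e}

/-- **(J2-graph)**: the Johnson lemma transported to the classes of `~_{ab}` (target of BJ2). -/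
def J2Graph (d : Fin n → ℕ) (f : Finset (Edge n) → ℝ) : Prop :=
  ∀ a b : Fin n, a ≠ b →
    (∑ c, ∑ e, if D4 a b c e then Bad d a b c e f else 0)
      ≤ (1 / 2) * ∑ c, ∑ e, if D4 a b c e then Sw d a b c e f else 0

/-- **(DP), tuple form.** -/
theorem dp_tuples (d : Fin n → ℕ) (f : Finset (Edge n) → ℝ)
    (hTPL : TPLGraph d f) (hJ2 : J2Graph d f) :
    0 ≤ sum4 (fun a b c e : Fin n => IPair d f {a, b} {c, e}) :=
  dp_sum (fun a b c e => Sw d a b c e f) (fun a b c e => Bad d a b c e f)
    (fun a b c e => IPair d f {a, b} {c, e}) hTPL hJ2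

/-- **(DP), pair form**: the hypothesis `h2` of helper26's `gap_pairs`, written with `Rop`. -/
theorem dp_pairs (d : Fin n → ℕ) (f : Finset (Edge n) → ℝ)
    (hTPL : TPLGraph d f) (hJ2 : J2Graph d f) :
    0 ≤ ∑ p : {s : Finset (Fin n) // s.card = 2},
        ∑ p' ∈ univ.filter (fun p' : {s : Finset (Fin n) // s.card = 2} =>
            p' ≠ p ∧ Disjoint (p : Finset (Fin n)) (p' : Finset (Fin n))),
          ∑ G ∈ realizations d, Rop d p.1 f G * Rop d p'.1 f G := by
  have h := sum_pairs_eq_tuples (V := Fin n) (fun U U' => IPair d f U U')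
  have h' := dp_tuples d f hTPL hJ2
  unfold IPair at h
  rw [h]
  have : (0 : ℝ) ≤ 1 / 4 := by norm_num
  exact mul_nonneg this h'

/-- **(DP), pair form**, literally with `f G - Qavg d U f G`. -/
theorem dp_pairs_offU (d : Fin n → ℕ) (f : Finset (Edge n) → ℝ)
    (hTPL : TPLGraph d f) (hJ2 : J2Graph d f) :
    0 ≤ ∑ p : {s : Finset (Fin n) // s.card = 2},
        ∑ p' ∈ univ.filter (fun p' : {s : Finset (Fin n) // s.card = 2} =>
            p' ≠ p ∧ Disjoint (p : Finset (Fin n)) (p' : Finset (Fin n))),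
          ∑ G ∈ realizations d, (f G - Qavg d p.1 f G) * (f G - Qavg d p'.1 f G) :=
  dp_pairs d f hTPL hJ2

end Crest.Agent.Helper10.S0453
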