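import Crest.Agent.Helper10.S0453.DP

/-!
# S0453 — API for the pair interface (`SwAt`, `blk`, `flip`, `Split`, `Sw`, `Bad`) (helper10)

* block edges: `mkE_mem_blk`, symmetries `blk_comm_left/right`, `blk_swap`;
* `flip`: `adj_flip_of_blk`, `adj_flip_of_not_blk`, `flip_flip`, symmetries, `offU_flip_left/right`;
* `SwAt`/`Split`: symmetries, `swAt_flip`, `split_flip`;
* `flip_eq` (normal form `G \ pm2 a c b e ∪ pm2 a e b c`), `isSwitch_flip`,
  `flip_mem_realizations`, `flip_mem_cls_left/right`;
* `Sw_swap`, `Sw_comm_right`, `Sw_comm_left`, `Bad_comm_right`, `Bad_comm_left`.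
-/

set_option autoImplicit false

namespace Crest.Agent.Helper10.S0453

open Finset Crest.SwitchChain Crest.Agent.Helper65.Switch

variable {n : ℕ}

/-! ### the block -/

lemma mem_blk {a b c e : Fin n} {x : Edge n} :
    x ∈ blk a b c e ↔ x.1 = s(a, c) ∨ x.1 = s(b, e) ∨ x.1 = s(a, e) ∨ x.1 = s(b, c) := by
  simp [blk]

/-- An edge `xy` is a block edge iff one endpoint is in `{a, b}` and the other in `{c, e}`. -/
lemma mkE_mem_blk {a b c e x y : Fin n} (hxy : x ≠ y) :
    mkE x y hxy ∈ blk a b c e ↔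
      ((x = a ∨ x = b) ∧ (y = c ∨ y = e)) ∨ ((x = c ∨ x = e) ∧ (y = a ∨ y = b)) := by
  rw [mem_blk]
  simp only [mkE, Sym2.eq_iff]
  tauto

lemma blk_comm_left (a b c e : Fin n) : blk a b c e = blk b a c e := by
  ext x
  obtain ⟨x, y, hxy, rfl⟩ := exists_eq_mkE x
  rw [mkE_mem_blk, mkE_mem_blk]
  tauto

lemma blk_comm_right (a b c e : Fin n) : blk a b c e = blk a b e c := by
  ext x
  obtain ⟨x, y, hxy, rfl⟩ := exists_eq_mkE x
  rw [mkE_mem_blk, mkE_mem_blk]
  tauto

lemma blk_swap (a b c e : Fin n) : blk a b c e = blk c e a b := by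
  ext x
  obtain ⟨x, y, hxy, rfl⟩ := exists_eq_mkE x
  rw [mkE_mem_blk, mkE_mem_blk]
  tauto

/-! ### flip -/

lemma flip_comm_left (a b c e : Fin n) (G : Finset (Edge n)) : flip a b c e G = flip b a c e G := by
  unfold flip; rw [blk_comm_left]

lemma flip_comm_right (a b c e : Fin n) (G : Finset (Edge n)) :
    flip a b c e G = flip a b e c G := by
  unfold flip; rw [blk_comm_right]

lemma flip_swap (a b c e : Fin n) (G : Finset (Edge n)) : flip a b c e G = flip c e a b G := by
  unfold flip; rw [blk_swap]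

@[simp] lemma flip_flip (a b c e : Fin n) (G : Finset (Edge n)) :
    flip a b c e (flip a b c e G) = G := by
  unfold flip
  exact symmDiff_symmDiff_cancel_right _ _

lemma flip_injective (a b c e : Fin n) : Function.Injective (flip (n := n) a b c e) := by
  intro G G' h
  have := congrArg (flip a b c e) h
  simpa using this

lemma mem_flip {a b c e : Fin n} {G : Finset (Edge n)} {x : Edge n} :
    x ∈ flip a b c e G ↔ (x ∈ G ∧ x ∉ blk a b c e) ∨ (x ∈ blk a b c e ∧ x ∉ G) := by
  unfold flip
  exact Finset.mem_symmDiff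

/-- On a block edge, `flip` negates adjacency. -/
lemma adj_flip_of_blk {a b c e x y : Fin n} {G : Finset (Edge n)} (hxy : x ≠ y)
    (h : ((x = a ∨ x = b) ∧ (y = c ∨ y = e)) ∨ ((x = c ∨ x = e) ∧ (y = a ∨ y = b))) :
    adj (flip a b c e G) x y ↔ ¬ adj G x y := by
  rw [adj_iff hxy, adj_iff hxy, mem_flip]
  have hb := (mkE_mem_blk (a := a) (b := b) (c := c) (e := e) hxy).2 h
  tauto

/-- Off the block, `flip` does not change adjacency. -/
lemma adj_flip_of_not_blk {a b c e x y : Fin n} {G : Finset (Edge n)}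
    (h : ¬ (((x = a ∨ x = b) ∧ (y = c ∨ y = e)) ∨ ((x = c ∨ x = e) ∧ (y = a ∨ y = b)))) :
    adj (flip a b c e G) x y ↔ adj G x y := by
  by_cases hxy : x = y
  · subst hxy
    exact ⟨fun hh => absurd hh not_adj_self, fun hh => absurd hh not_adj_self⟩
  · rw [adj_iff hxy, adj_iff hxy, mem_flip]
    have hb : mkE x y hxy ∉ blk a b c e := fun hh => h ((mkE_mem_blk hxy).1 hh)
    tauto

lemma offU_flip_left (a b c e : Fin n) (G : Finset (Edge n)) :
    offU {a, b} (flip a b c e G) = offU {a, b} G := by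
  rw [offU_eq_iff]
  intro x y hx hy
  apply adj_flip_of_not_blk
  simp only [Finset.mem_insert, Finset.mem_singleton] at hx hy
  tauto

lemma offU_flip_right (a b c e : Fin n) (G : Finset (Edge n)) :
    offU {c, e} (flip a b c e G) = offU {c, e} G := by
  rw [offU_eq_iff]
  intro x y hx hy
  apply adj_flip_of_not_blk
  simp only [Finset.mem_insert, Finset.mem_singleton] at hx hy
  tauto

/-! ### `SwAt` and `Split` -/

lemma swAt_comm {G : Finset (Edge n)} {a b c e : Fin n} : SwAt G a b c e ↔ SwAt G b a e c := by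
  unfold SwAt; tauto

lemma swAt_swap {G : Finset (Edge n)} {a b c e : Fin n} : SwAt G a b c e ↔ SwAt G c e a b := by
  unfold SwAt
  rw [adj_comm (x := a) (y := c), adj_comm (x := b) (y := e), adj_comm (x := a) (y := e),
    adj_comm (x := b) (y := c)]
  tauto

lemma split_comm_right {G : Finset (Edge n)} {a b c e : Fin n} :
    Split G a b c e ↔ Split G a b e c := by
  unfold Split; tauto

lemma split_comm_left {G : Finset (Edge n)} {a b c e : Fin n} :
    Split G a b c e ↔ Split G b a c e := by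
  unfold Split
  rw [swAt_comm (a := a) (b := b) (c := c) (e := e), swAt_comm (a := a) (b := b) (c := e) (e := c)]
  tauto

lemma split_swap {G : Finset (Edge n)} {a b c e : Fin n} : Split G a b c e ↔ Split G c e a b := by
  unfold Split
  rw [swAt_swap (a := a) (b := b) (c := c) (e := e), swAt_swap (a := a) (b := b) (c := e) (e := c),
    swAt_comm (a := e) (b := c) (c := a) (e := b)]

/-- `Split` in terms of the four block adjacencies: the block is a permutation matrix. -/
lemma split_iff {G : Finset (Edge n)} {a b c e : Fin n} :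
    Split G a b c e ↔
      (adj G a c ∧ adj G b e ∧ ¬ adj G a e ∧ ¬ adj G b c) ∨
      (adj G a e ∧ adj G b c ∧ ¬ adj G a c ∧ ¬ adj G b e) := Iff.rfl

/-- After the switch, the opposite switch is available. -/
lemma swAt_flip {G : Finset (Edge n)} {a b c e : Fin n} (hD : D4 a b c e) :
    SwAt (flip a b c e G) a b e c ↔ SwAt G a b c e := by
  obtain ⟨h1, h2, h3, h4, h5, h6⟩ := hD
  unfold SwAt
  rw [adj_flip_of_blk h3 (by tauto), adj_flip_of_blk h4 (by tauto),
    adj_flip_of_blk h2 (by tauto), adj_flip_of_blk h5 (by tauto)]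
  tauto

lemma swAt_flip' {G : Finset (Edge n)} {a b c e : Fin n} (hD : D4 a b c e) :
    SwAt (flip a b c e G) a b c e ↔ SwAt G a b e c := by
  obtain ⟨h1, h2, h3, h4, h5, h6⟩ := hD
  unfold SwAt
  rw [adj_flip_of_blk h3 (by tauto), adj_flip_of_blk h4 (by tauto),
    adj_flip_of_blk h2 (by tauto), adj_flip_of_blk h5 (by tauto)]
  tauto

lemma split_flip {G : Finset (Edge n)} {a b c e : Fin n} (hD : D4 a b c e) :
    Split (flip a b c e G) a b c e ↔ Split G a b c e := by
  unfold Split
  rw [swAt_flip hD, swAt_flip' hD]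
  tauto

/-! ### normal form of the flipped graph -/

/-- When the switch `ac, be → ae, bc` is available, `flip` performs it. -/
lemma flip_eq {G : Finset (Edge n)} {a b c e : Fin n} (hD : D4 a b c e) (h : SwAt G a b c e) :
    flip a b c e G = G \ pm2 a c b e hD.2.1 hD.2.2.2.2.1 ∪ pm2 a e b c hD.2.2.1 hD.2.2.2.1 := by
  obtain ⟨h1, h2, h3, h4, h5, h6⟩ := hD
  obtain ⟨s1, s2, s3, s4⟩ := h
  rw [adj_iff h2] at s1
  rw [adj_iff h5] at s2
  rw [adj_iff h3] at s3
  rw [adj_iff h4] at s4
  ext x
  obtain ⟨x, y, hxy, rfl⟩ := exists_eq_mkE x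
  rw [mem_flip, mkE_mem_blk]
  simp only [pm2, Finset.mem_union, Finset.mem_sdiff, Finset.mem_insert, Finset.mem_singleton,
    mkE_eq_iff]
  constructor
  · rintro (⟨hm, hnb⟩ | ⟨hb, hm⟩)
    · left
      refine ⟨hm, ?_⟩
      tauto
    · right
      rcases hb with ⟨hx | hx, hy | hy⟩ | ⟨hx | hx, hy | hy⟩
      · subst hx; subst hy; exact absurd s1 hm
      · subst hx; subst hy; exact Or.inl (Or.inl ⟨rfl, rfl⟩)
      · subst hx; subst hy; exact Or.inr (Or.inl ⟨rfl, rfl⟩)
      · subst hx; subst hy; exact absurd s2 hm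
      · subst hx; subst hy
        exact absurd (by rw [mkE_comm]; exact s1) hm
      · subst hx; subst hy; exact Or.inr (Or.inr ⟨rfl, rfl⟩)
      · subst hx; subst hy; exact Or.inl (Or.inr ⟨rfl, rfl⟩)
      · subst hx; subst hy
        exact absurd (by rw [mkE_comm]; exact s2) hm
  · rintro (⟨hm, hne⟩ | hnew)
    · left
      refine ⟨hm, ?_⟩
      rintro (⟨hx | hx, hy | hy⟩ | ⟨hx | hx, hy | hy⟩)
      · subst hx; subst hy; exact hne (Or.inl (Or.inl ⟨rfl, rfl⟩))
      · subst hx; subst hy; exact s3 hm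
      · subst hx; subst hy; exact s4 hm
      · subst hx; subst hy; exact hne (Or.inr (Or.inl ⟨rfl, rfl⟩))
      · subst hx; subst hy; exact hne (Or.inl (Or.inr ⟨rfl, rfl⟩))
      · subst hx; subst hy
        exact s4 (by rw [mkE_comm]; exact hm)
      · subst hx; subst hy
        exact s3 (by rw [mkE_comm]; exact hm)
      · subst hx; subst hy; exact hne (Or.inr (Or.inr ⟨rfl, rfl⟩))
    · right
      rcases hnew with (⟨hx, hy⟩ | ⟨hx, hy⟩) | (⟨hx, hy⟩ | ⟨hx, hy⟩)
      · subst hx; subst hy; exact ⟨by tauto, s3⟩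
      · subst hx; subst hy
        exact ⟨by tauto, fun hm => s3 (by rw [mkE_comm]; exact hm)⟩
      · subst hx; subst hy; exact ⟨by tauto, s4⟩
      · subst hx; subst hy
        exact ⟨by tauto, fun hm => s4 (by rw [mkE_comm]; exact hm)⟩

/-- The flip along an available switch is a switch in the sense of the frozen kernel. -/
lemma isSwitch_flip {G : Finset (Edge n)} {a b c e : Fin n} (hD : D4 a b c e)
    (h : SwAt G a b c e) : IsSwitch G (flip a b c e G) := by
  rw [flip_eq hD h]
  obtain ⟨h1, h2, h3, h4, h5, h6⟩ := hD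
  obtain ⟨s1, s2, s3, s4⟩ := h
  rw [adj_iff h2] at s1
  rw [adj_iff h5] at s2
  rw [adj_iff h3] at s3
  rw [adj_iff h4] at s4
  -- `isSwitch_pm2` with its `(a, b, c, d) := (a, c, e, b)`
  have key := isSwitch_pm2 (G := G) (a := a) (b := c) (c := e) (d := b) h2 h3 h1 h6 h4.symm
    h5.symm ?_ ?_
  · rw [pm2_comm_right a c e b, pm2_comm_right a e c b] at key
    exact key
  · intro x hx
    simp only [pm2, Finset.mem_insert, Finset.mem_singleton] at hx
    rcases hx with rfl | rfl
    · exact s1
    · rw [← mkE_comm]; exact s2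
  · rw [Finset.disjoint_left]
    intro x hx
    simp only [pm2, Finset.mem_insert, Finset.mem_singleton] at hx
    rcases hx with rfl | rfl
    · exact s3
    · rw [← mkE_comm]; exact s4

lemma flip_mem_realizations {d : Fin n → ℕ} {G : Finset (Edge n)} {a b c e : Fin n}
    (hD : D4 a b c e) (hG : G ∈ realizations d) (h : Split G a b c e) :
    flip a b c e G ∈ realizations d := by
  rcases h with h | h
  · exact (isSwitch_flip hD h).mem_realizations hG
  · have hD' : D4 a b e c := by
      obtain ⟨h1, h2, h3, h4, h5, h6⟩ := hD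
      exact ⟨h1, h3, h2, h5, h4, h6.symm⟩
    rw [flip_comm_right]
    exact (isSwitch_flip hD' h).mem_realizations hG

lemma flip_mem_cls_left {d : Fin n → ℕ} {G : Finset (Edge n)} {a b c e : Fin n}
    (hD : D4 a b c e) (hG : G ∈ realizations d) (h : Split G a b c e) :
    flip a b c e G ∈ cls d {a, b} G :=
  mem_cls.2 ⟨flip_mem_realizations hD hG h, offU_flip_left a b c e G⟩

lemma flip_mem_cls_right {d : Fin n → ℕ} {G : Finset (Edge n)} {a b c e : Fin n}
    (hD : D4 a b c e) (hG : G ∈ realizations d) (h : Split G a b c e) :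
    flip a b c e G ∈ cls d {c, e} G :=
  mem_cls.2 ⟨flip_mem_realizations hD hG h, offU_flip_right a b c e G⟩

/-! ### symmetries of `Sw` and `Bad` -/

lemma Sw_swap (d : Fin n → ℕ) (a b c e : Fin n) (f : Finset (Edge n) → ℝ) :
    Sw d a b c e f = Sw d c e a b f := by
  classical
  rw [Sw_def, Sw_def]
  refine Finset.sum_congr ?_ (fun G _ => by rw [flip_swap])
  ext G
  simp only [Finset.mem_filter]
  rw [swAt_swap]

lemma Sw_comm (d : Fin n → ℕ) (a b c e : Fin n) (f : Finset (Edge n) → ℝ) :
    Sw d a b c e f = Sw d b a e c f := by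
  classical
  rw [Sw_def, Sw_def]
  refine Finset.sum_congr ?_ (fun G _ => by rw [flip_comm_left, flip_comm_right])
  ext G
  simp only [Finset.mem_filter]
  rw [swAt_comm]

/-- Reindexing by the switch itself. -/
lemma Sw_comm_right (d : Fin n → ℕ) {a b c e : Fin n} (hD : D4 a b c e)
    (f : Finset (Edge n) → ℝ) : Sw d a b c e f = Sw d a b e c f := by
  classical
  have hD' : D4 a b e c := by
    obtain ⟨h1, h2, h3, h4, h5, h6⟩ := hD
    exact ⟨h1, h3, h2, h5, h4, h6.symm⟩
  rw [Sw_def, Sw_def]
  refine Finset.sum_bij (fun G _ => flip a b c e G) ?_ ?_ ?_ ?_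
  · intro G hG
    rw [Finset.mem_filter] at hG ⊢
    exact ⟨flip_mem_realizations hD hG.1 (Or.inl hG.2), (swAt_flip hD).2 hG.2⟩
  · intro G _ G' _ h
    exact flip_injective a b c e h
  · intro G' hG'
    rw [Finset.mem_filter] at hG'
    refine ⟨flip a b c e G', ?_, flip_flip a b c e G'⟩
    rw [Finset.mem_filter]
    refine ⟨flip_mem_realizations hD hG'.1 (Or.inr hG'.2), ?_⟩
    rw [flip_comm_right, swAt_flip hD']
    exact hG'.2
  · intro G _
    rw [← flip_comm_right, flip_flip]
    ring

lemma Sw_comm_left (d : Fin n → ℕ) {a b c e : Fin n} (hD : D4 a b c e)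
    (f : Finset (Edge n) → ℝ) : Sw d a b c e f = Sw d b a c e f := by
  rw [Sw_comm_right d hD f, Sw_comm d a b e c f]

lemma Bad_comm_right (d : Fin n → ℕ) (a b c e : Fin n) (f : Finset (Edge n) → ℝ) :
    Bad d a b c e f = Bad d a b e c f := by
  classical
  rw [Bad_def, Bad_def]
  have hset : ∀ S : Finset (Finset (Edge n)),
      S.filter (fun G => Split G a b c e) = S.filter (fun G => Split G a b e c) := by
    intro S
    ext G
    simp only [Finset.mem_filter]
    rw [split_comm_right]
  rw [hset]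
  refine Finset.sum_congr rfl (fun G _ => ?_)
  rw [hset]

lemma Bad_comm_left (d : Fin n → ℕ) (a b c e : Fin n) (f : Finset (Edge n) → ℝ) :
    Bad d a b c e f = Bad d b a c e f := by
  classical
  rw [Bad_def, Bad_def]
  have hset : ∀ S : Finset (Finset (Edge n)),
      S.filter (fun G => Split G a b c e) = S.filter (fun G => Split G b a c e) := by
    intro S
    ext G
    simp only [Finset.mem_filter]
    rw [split_comm_left]
  rw [hset, Finset.pair_comm a b]
  refine Finset.sum_congr rfl (fun G _ => ?_)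
  rw [hset]

end Crest.Agent.Helper10.S0453
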